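import Vale.Agent.P207.N5.H547.AffLemC
import Vale.Agent.P207.H376.LGlue

/-!
# P207, line N5, row PIC-LOC: step 5 over `Pic`

From the rows T2, T3 for the leaves near `em x` and the fact that the derivatives of the holonomies,
normalised at `0`, stabilise the space `S` of forms: the tensor `N0 x` is smooth, or the
infinitesimal stabiliser of `S` contains an element of rank one.
-/

set_option linter.all false

open Set Filter Topology Metric MeasureTheory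
open scoped ContDiff

noncomputable section

namespace Vale.Agent.P207.N4.V

open Vale.Agent.P207.N3

variable [Dim]

variable {Γ X B : Type} [Group Γ] [MetricSpace X] [ProperSpace X] [MulAction Γ X]
  [IsIsometricSMul Γ X] [TopologicalSpace B] [CompactSpace B] [T2Space B] [MulAction Γ B]
  [ContinuousConstSMul Γ B]

namespace Pic

variable {L : Leaf Γ X B} [MeasurableSpace B] [BorelSpace B] {V : Type}
  [NormedAddCommGroup V] [NormedSpace ℝ V] [FiniteDimensional ℝ V] (P : Pic L V)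

/-- every small covector is the gradient of a leaf -/
theorem exists_label_loc (x : X) {y : E2} (hy : ‖y‖ < P.Bu.δ / P.Af.c) :
    ∃ ξ, 0 < P.Bu.nu x ξ 0 ∧ P.gr x ξ 0 = y := by
  have hc := P.Af.c_pos
  obtain ⟨ξ, h1, h2⟩ := P.Bu.cov_surj x 0 (mem_ball_self (by norm_num)) (P.Af.c • y) (by
    rw [norm_smul, Real.norm_of_nonneg hc.le]
    rwa [lt_div_iff₀ hc, mul_comm] at hy)
  refine ⟨ξ, h1, ?_⟩
  rw [P.gr_zero, h2, smul_smul, inv_mul_cancel₀ hc.ne', one_smul]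

theorem Th_ne (x : X) (ξ : B) {q : E2} (hq : (x, q) ∈ P.Af.dT) : P.Th x ξ q ≠ ξ := by
  obtain ⟨z, h1, h2, -⟩ := P.Bu.exists_fr x ξ (P.dsc x q) (P.mem3 hq)
  intro h
  have h3 := L.em_ne_ep z
  rw [h1, h2] at h3
  exact h3 h.symm

theorem norm_fderiv_gradient_le {f : E2 → ℝ} {q : E2} (hf : ContDiffAt ℝ 2 f q) :
    DifferentiableAt ℝ (gradient f) q ∧
      ‖fderiv ℝ (gradient f) q‖ ≤ ‖iteratedFDeriv ℝ 2 f q‖ := by
  have hd : DifferentiableAt ℝ (fderiv ℝ f) q :=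
    (hf.fderiv_right (m := 1) (by norm_num)).differentiableAt (by norm_num)
  have h2 : HasFDerivAt (gradient f) (H709.rz ∘L fderiv ℝ (fderiv ℝ f) q) q := by
    rw [H709.gradient_eq_rz]
    exact H709.rz.hasFDerivAt.comp q hd.hasFDerivAt
  refine ⟨h2.differentiableAt, ?_⟩
  rw [h2.fderiv]
  have h3 : ‖iteratedFDeriv ℝ 2 f q‖ = ‖fderiv ℝ (fderiv ℝ f) q‖ := by
    rw [← norm_iteratedFDeriv_fderiv, norm_iteratedFDeriv_one]
  rw [h3]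
  refine ContinuousLinearMap.opNorm_le_bound _ (fderiv ℝ (fderiv ℝ f) q).opNorm_nonneg fun v => ?_
  change ‖H709.rz (fderiv ℝ (fderiv ℝ f) q v)‖ ≤ _
  rw [H709.norm_rz]
  exact (fderiv ℝ (fderiv ℝ f) q).le_opNorm v

/-- step 5, for `b < 2 a` -/
theorem loc_of {ε₀ : ℝ} (hab : P.Ra.b < 2 * P.Ra.a) (hε : 0 < ε₀) (h2d : P.T2d ε₀) (h2a : P.T2a ε₀) (h2h : P.T2h ε₀) (h3 : P.T3 ε₀)
    (x : X) (hN : ContinuousOn (P.N0 x) (ball 0 1)) (S : Submodule ℝ (E2 →L[ℝ] E2 →L[ℝ] ℝ))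
    (hst : ∀ ξ, ξ ≠ L.ep x → ∀ κ' : E2 →L[ℝ] E2, κ' * fderiv ℝ (P.hh x ξ) 0 = 1 →
      ∀ q, P.Af.pt x q ≠ ξ → H61.Stab S (κ' * fderiv ℝ (P.hh x ξ) q)) :
    (∀ α : E2, ContDiffOn ℝ ∞ (fun q => P.N0 x q α) (ball 0 (1 / 2))) ∨
      ∃ ζ w : E2, ζ ≠ 0 ∧ w ≠ 0 ∧ H253.rk ζ w ∈ H61.J S := by
  by_cases hJ : ∃ ζ w : E2, ζ ≠ 0 ∧ w ≠ 0 ∧ H253.rk ζ w ∈ H61.J S
  · exact Or.inr hJ
  refine Or.inl fun α => ?_
  have hapos := P.Ra.a_pos
  have hbpos : 0 < P.Ra.b := hapos.trans_le P.Ra.a_le_b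
  set θ : ℝ := min 1 ((2 * P.Ra.a - P.Ra.b) / (2 * P.Ra.b)) with hθ
  have hθ0 : 0 < θ := lt_min one_pos (div_pos (by linarith) (by linarith))
  have hθ1 : θ ≤ 1 := min_le_left _ _
  have hθb : (θ + 1) * P.Ra.b < 2 * P.Ra.a := by
    have h1 : θ * (2 * P.Ra.b) ≤ 2 * P.Ra.a - P.Ra.b := by
      have h2 : θ ≤ (2 * P.Ra.a - P.Ra.b) / (2 * P.Ra.b) := min_le_right _ _
      rwa [le_div_iff₀ (by linarith)] at h2
    nlinarith
  set κ : ℝ := 1 - θ / 4 with hκ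
  obtain ⟨C₁, hC₁⟩ := h2d (1 + θ) (by linarith) 2 le_rfl
  obtain ⟨h2a1, h2a2, h2a3, -⟩ := h2a
  have hck : ∀ k : ℕ, ∃ C : ℝ, 2 ≤ k → ∀ x ξ, P.Nr ε₀ x ξ → ∀ q ∈ ball (0 : E2) 1,
      ‖iteratedFDeriv ℝ k (P.Aq x ξ) q‖ ≤ C * ‖P.gr x ξ 0‖ ^ θ := by
    intro k
    by_cases hk : 2 ≤ k
    · obtain ⟨C, hC⟩ := h2a1 θ hθb k hk
      exact ⟨C, fun _ => hC⟩
    · exact ⟨0, fun h => absurd h hk⟩
  choose Ck hCk using hck
  obtain ⟨ρ, hρ, hρ'⟩ := h2a2 (1 / 2) (by norm_num)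
  obtain ⟨C₂, hC₂⟩ := h2h
  obtain ⟨h31, h32⟩ := h3
  obtain ⟨C₃, hC₃⟩ := h32 κ (by rw [hκ]; linarith)
  have hcl : closedBall (0 : E2) (1 / 2) ⊆ ball 0 1 := closedBall_subset_ball (by norm_num)
  obtain ⟨M, hM⟩ := (isCompact_closedBall (0 : E2) (1 / 2)).exists_bound_of_continuousOn
    (hN.mono hcl)
  have hδ : 0 < P.Bu.δ / P.Af.c := div_pos P.Bu.δ_pos P.Af.c_pos
  set a : ℝ := ‖α‖ with ha
  have ha0 : 0 ≤ a := norm_nonneg α
  have hp1 : 0 ≤ a ^ (1 + θ) := Real.rpow_nonneg ha0 _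
  have hp2 : 0 ≤ a ^ κ := Real.rpow_nonneg ha0 _
  have hp3 : 0 ≤ a ^ θ := Real.rpow_nonneg ha0 _
  set C : ℝ := |C₁| * a ^ (1 + θ) + |C₂| * a ^ 2 + |C₃| * a ^ κ + |M| with hC
  have hC0 : 0 ≤ C := by positivity
  set t₀ : ℝ := min (P.Bu.δ / P.Af.c) (min ε₀ ρ) / (a + 1) with ht₀
  have ht₀0 : 0 < t₀ := div_pos (lt_min hδ (lt_min hε hρ)) (by linarith)
  have hb1 : ball (0 : E2) (1 / 2) ⊆ ball 0 1 := ball_subset_ball (by norm_num)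
  have hdT : ∀ q ∈ ball (0 : E2) 2, (x, q) ∈ P.Af.dT := fun q hq =>
    P.Af.closedBall_dT x (ball_subset_closedBall hq)
  refine (H376.lglue2 S (N0 := P.N0 x) (α := α) (C := C) (θ := θ) (κ := κ) (t₀ := t₀)
    (Ck := fun k => |Ck k| * a ^ θ) hC0 hθ0 (by rw [hκ]; linarith) hθ1
    (by rw [hκ]; linarith) (by rw [hκ]; linarith) ht₀0 ?_ ?_ ?_).resolve_right hJ
  · exact (hN.mono hb1).clm_apply continuousOn_const
  · intro q hq
    have h1 := hM q (ball_subset_closedBall hq)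
    have h2 := le_abs_self M
    have h4 : 0 ≤ |C₁| * a ^ (1 + θ) + |C₂| * a ^ 2 + |C₃| * a ^ κ := by positivity
    linarith
  intro t ht htt
  have hta : t * (a + 1) < min (P.Bu.δ / P.Af.c) (min ε₀ ρ) := by
    rwa [ht₀, lt_div_iff₀ (by linarith)] at htt
  have hta' : t * a < min (P.Bu.δ / P.Af.c) (min ε₀ ρ) := by nlinarith
  have hn : ‖t • α‖ = t * a := by rw [norm_smul, Real.norm_of_nonneg ht.le]
  obtain ⟨ξ, hξ, hgr⟩ := P.exists_label_loc x (y := t • α) (by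
    rw [hn]; exact hta'.trans_le (min_le_left _ _))
  have hgn : ‖P.gr x ξ 0‖ = t * a := by rw [hgr, hn]
  have hN0 : P.Nr ε₀ x ξ := ⟨hξ, by
    rw [hgn]; exact (hta'.trans_le ((min_le_right _ _).trans (min_le_left _ _))).le⟩
  have hNρ : P.Nr ρ x ξ := ⟨hξ, by
    rw [hgn]; exact (hta'.trans_le ((min_le_right _ _).trans (min_le_right _ _))).le⟩
  have hne : ∀ q ∈ ball (0 : E2) 1, P.Af.pt x q ≠ ξ := by
    intro q hq
    obtain ⟨h1, h2, -⟩ := hC₂ x ξ hN0 q hq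
    rw [← h2]
    exact P.Th_ne x ξ (hdT _ h1)
  have h01 : (0 : E2) ∈ ball (0 : E2) 1 := mem_ball_self one_pos
  have hep : ξ ≠ L.ep x := by
    have := hne 0 h01
    rw [P.Af.pt_zero] at this
    exact this.symm
  obtain ⟨h4, h5⟩ := h31 x ξ hep
  have hopen : IsOpen {q : E2 | P.Af.pt x q ≠ ξ} := by
    have h6 : Continuous fun q : E2 => P.Af.pt x q :=
      P.Af.pt_cont.comp (Continuous.prodMk continuous_const continuous_id)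
    exact isOpen_compl_singleton.preimage h6
  obtain ⟨e, he⟩ := h5 0 (hne 0 h01)
  have hinv : (e.symm : E2 →L[ℝ] E2) * fderiv ℝ (P.hh x ξ) 0 = 1 := by
    rw [← he]
    ext1 v
    simp
  refine ⟨P.gr x ξ, P.hh x ξ, P.Aq x ξ, P.Hq x ξ, (e.symm : E2 →L[ℝ] E2), hgr, ?_, h2a3 x ξ hN0, ?_,
    ?_, ?_, ?_, hinv, ?_⟩
  · intro q hq
    obtain ⟨h6, h7⟩ := norm_fderiv_gradient_le (f := P.dl x ξ)
      ((P.dl_smooth x ξ (hdT q (ball_subset_ball (by norm_num) hq))).of_le two_le_infty)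
    refine ⟨h6, h7.trans ((hC₁ x ξ hN0 q hq).trans ?_)⟩
    rw [hgn, Real.mul_rpow ht.le ha0]
    have h8 : 0 ≤ t ^ (1 + θ) := Real.rpow_nonneg ht.le _
    have h9 : C₁ * (t ^ (1 + θ) * a ^ (1 + θ)) ≤
        |C₁| * (t ^ (1 + θ) * a ^ (1 + θ)) :=
      mul_le_mul_of_nonneg_right (le_abs_self _) (by positivity)
    have h10 : |C₁| * a ^ (1 + θ) ≤ C := by
      have h4 : 0 ≤ |C₂| * a ^ 2 + |C₃| * a ^ κ + |M| := by positivity
      rw [hC]; linarith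
    have h11 := mul_le_mul_of_nonneg_right h10 h8
    linarith
  · intro q hq
    exact hρ' x ξ hNρ q hq
  · intro k hk q hq
    refine (hCk k hk x ξ hN0 q hq).trans ?_
    rw [hgn, Real.mul_rpow ht.le ha0]
    have h8 : 0 ≤ t ^ θ := Real.rpow_nonneg ht.le _
    have h9 : Ck k * (t ^ θ * a ^ θ) ≤
        |Ck k| * (t ^ θ * a ^ θ) :=
      mul_le_mul_of_nonneg_right (le_abs_self _) (by positivity)
    linarith
  · intro q hq
    obtain ⟨-, -, h6, h7⟩ := hC₂ x ξ hN0 q hq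
    refine ⟨h6, h7.trans ?_⟩
    rw [hgn]
    have h9 : C₂ * (t * a) ^ 2 ≤ |C₂| * (t * a) ^ 2 :=
      mul_le_mul_of_nonneg_right (le_abs_self _) (by positivity)
    have h10 : |C₂| * a ^ 2 ≤ C := by
      have h4 : 0 ≤ |C₁| * a ^ (1 + θ) + |C₃| * a ^ κ + |M| := by positivity
      rw [hC]; linarith
    have h11 := mul_le_mul_of_nonneg_right h10 (sq_nonneg t)
    have h12 : |C₂| * (t * a) ^ 2 = |C₂| * a ^ 2 * t ^ 2 := by ring
    linarith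
  · intro q hq
    refine ⟨(h4.contDiffAt (hopen.mem_nhds (hne q hq))).differentiableAt (by norm_num), ?_⟩
    refine (hC₃ x ξ hN0 q hq).trans ?_
    rw [hgn, Real.mul_rpow ht.le ha0]
    have h8 : 0 ≤ t ^ κ := Real.rpow_nonneg ht.le _
    have h9 : C₃ * (t ^ κ * a ^ κ) ≤
        |C₃| * (t ^ κ * a ^ κ) :=
      mul_le_mul_of_nonneg_right (le_abs_self _) (by positivity)
    have h10 : |C₃| * a ^ κ ≤ C := by
      have h4 : 0 ≤ |C₁| * a ^ (1 + θ) + |C₂| * a ^ 2 + |M| := by positivity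
      rw [hC]; linarith
    have h11 := mul_le_mul_of_nonneg_right h10 h8
    linarith
  · intro q hq
    exact hst ξ hep _ hinv q (hne q (hb1 hq))

theorem loc {ε₀ : ℝ} (hε : 0 < ε₀) (h2d : P.T2d ε₀) (h2a : P.T2a ε₀) (h2h : P.T2h ε₀) (h3 : P.T3 ε₀)
    (x : X) (hN : ContinuousOn (P.N0 x) (ball 0 1)) (S : Submodule ℝ (E2 →L[ℝ] E2 →L[ℝ] ℝ))
    (hst : ∀ ξ, ξ ≠ L.ep x → ∀ κ' : E2 →L[ℝ] E2, κ' * fderiv ℝ (P.hh x ξ) 0 = 1 →
      ∀ q, P.Af.pt x q ≠ ξ → H61.Stab S (κ' * fderiv ℝ (P.hh x ξ) q)) :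
    (∀ α : E2, ContDiffOn ℝ ∞ (fun q => P.N0 x q α) (ball 0 (1 / 2))) ∨
      ∃ ζ w : E2, ζ ≠ 0 ∧ w ≠ 0 ∧ H253.rk ζ w ∈ H61.J S := by
  have h1 := P.Ra.pinch
  have h2 := P.Ra.a_pos
  exact P.loc_of (by linarith) hε h2d h2a h2h h3 x hN S hst

theorem N0_cont_one (x : X) : ContinuousOn (P.N0 x) (ball 0 1) := by
  have h1 : ContinuousOn (fun q : E2 => ((x, q) : X × E2)) (ball 0 1) :=
    (Continuous.prodMk continuous_const continuous_id).continuousOn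
  have h2 : MapsTo (fun q : E2 => ((x, q) : X × E2)) (ball 0 1) P.Af.dT := fun q hq =>
    P.Af.closedBall_dT x (ball_subset_closedBall (ball_subset_ball (by norm_num) hq))
  have h3' := P.N0_cont
  have h4 := h3'.comp h1 h2
  exact h4

/-- `loc_of` without the continuity hypothesis; only `b < 2 a` is used -/
theorem loc_q {ε₀ : ℝ} (hab : P.Ra.b < 2 * P.Ra.a) (hε : 0 < ε₀) (h2d : P.T2d ε₀) (h2a : P.T2a ε₀)
    (h2h : P.T2h ε₀) (h3 : P.T3 ε₀) (x : X) (S : Submodule ℝ (E2 →L[ℝ] E2 →L[ℝ] ℝ))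
    (hst : ∀ ξ, ξ ≠ L.ep x → ∀ κ' : E2 →L[ℝ] E2, κ' * fderiv ℝ (P.hh x ξ) 0 = 1 →
      ∀ q, P.Af.pt x q ≠ ξ → H61.Stab S (κ' * fderiv ℝ (P.hh x ξ) q)) :
    (∀ α : E2, ContDiffOn ℝ ∞ (fun q => P.N0 x q α) (ball 0 (1 / 2))) ∨
      ∃ ζ w : E2, ζ ≠ 0 ∧ w ≠ 0 ∧ H253.rk ζ w ∈ H61.J S :=
  P.loc_of hab hε h2d h2a h2h h3 x (P.N0_cont_one x) S hst

/-- `loc` without the continuity hypothesis -/
theorem loc' {ε₀ : ℝ} (hε : 0 < ε₀) (h2d : P.T2d ε₀) (h2a : P.T2a ε₀) (h2h : P.T2h ε₀)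
    (h3 : P.T3 ε₀) (x : X) (S : Submodule ℝ (E2 →L[ℝ] E2 →L[ℝ] ℝ))
    (hst : ∀ ξ, ξ ≠ L.ep x → ∀ κ' : E2 →L[ℝ] E2, κ' * fderiv ℝ (P.hh x ξ) 0 = 1 →
      ∀ q, P.Af.pt x q ≠ ξ → H61.Stab S (κ' * fderiv ℝ (P.hh x ξ) q)) :
    (∀ α : E2, ContDiffOn ℝ ∞ (fun q => P.N0 x q α) (ball 0 (1 / 2))) ∨
      ∃ ζ w : E2, ζ ≠ 0 ∧ w ≠ 0 ∧ H253.rk ζ w ∈ H61.J S :=
  P.loc hε h2d h2a h2h h3 x (P.N0_cont_one x) S hst

end Pic

end Vale.Agent.P207.N4.V
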