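import Vale.Agent.P207.N4.Dim
import Vale.Agent.P207.N5.H761.T3A
import Vale.Agent.P207.N4.H751.FoN
import Vale.Agent.P207.N4.H242.FwdD
import Vale.Agent.P207.H751.Rep
import Vale.Agent.P207.H734.TyC
import Vale.Agent.P207.H376.SInvS

/-!
# P207, strict quarter pinching: the S-bundle is invariant under the stable holonomy (S-INV'')

`inv0_of`: at a frame `x` with dense forward orbit, from the closeness of `Sm` at small distance
(`CloseP`) and from the type lemma (`HasRep0`, `SmClose`, `DenseFrom`).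
-/

set_option maxSynthPendingDepth 3
set_option linter.unusedSectionVars false

open Set Filter Topology Metric MeasureTheory
open scoped ContDiff

noncomputable section

namespace Vale.Agent.P207.N4.V.H376

open Vale.Agent.P207.N3 Vale.Agent.P207.H751 Vale.Agent.P207.H686
open Vale.Agent.P207.H734 (PRep HasRep0 SmClose DenseFrom ty_quad_sm)
open Vale.Agent.P207.N4.H751 (fo fo_inj fo_surj fo_push)
open Vale.Agent.P207.N4.H242 (FwdD)

variable [Dim]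

variable {Γ X B : Type} [Group Γ] [MetricSpace X] [ProperSpace X] [MulAction Γ X]
  [IsIsometricSMul Γ X] [TopologicalSpace B] [CompactSpace B] [T2Space B] [MulAction Γ B]
  [ContinuousConstSMul Γ B]

variable {L : Leaf Γ X B} [MeasurableSpace B] [BorelSpace B] {V : Type}
  [NormedAddCommGroup V] [NormedSpace ℝ V] [FiniteDimensional ℝ V]

/-- the S-bundles of close leaves are close -/
def CloseP (P : Pic L V) : Prop := ∀ e : ℝ, 0 < e → ∃ ε : ℝ, 0 < ε ∧ ∃ C : ℝ, ∀ x ξ,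
  P.Nr ε x ξ → ∀ A : E2 ≃L[ℝ] E2, (A : E2 →L[ℝ] E2) = fderiv ℝ (P.hh x ξ) 0 → ∀ s ∈ P.Sm x,
    ∃ s' ∈ P.Sm (L.hol ξ x), ‖Pic.push A s - s'‖ ≤ C * ‖P.gr x ξ 0‖ ^ (1 - e) * ‖s‖

variable {P : Pic L V}

/-! ### frames over one geodesic -/

theorem pt_lin {x z : X} (h : L.em x = L.em z) (h' : L.ep z = L.ep x) (q : E2) :
    P.Af.pt z (P.Af.lin x z q) = P.Af.pt x q := by
  have h1 := P.Af.leaf x z h q
  have h2 : P.Af.ch x (L.ep z) = 0 := by rw [h', ← P.Af.pt_zero x, P.Af.ch_pt]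
  rwa [h2, sub_zero] at h1

theorem ch_lin {x z : X} (h : L.em x = L.em z) (h' : L.ep z = L.ep x) {η : B}
    (hη : η ≠ L.em x) : P.Af.ch z η = P.Af.lin x z (P.Af.ch x η) := by
  have h1 := pt_lin (P := P) h h' (P.Af.ch x η)
  rw [P.Af.pt_ch x η hη] at h1
  calc P.Af.ch z η = P.Af.ch z (P.Af.pt z (P.Af.lin x z (P.Af.ch x η))) := by rw [h1]
    _ = _ := P.Af.ch_pt _ _

theorem hh_lin {x z : X} {ξ : B} (hξ : ξ ≠ L.ep x) (h : L.em x = L.em z) (h' : L.ep z = L.ep x)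
    {q : E2} (hq : P.Af.pt x q ≠ ξ) :
    P.hh z ξ (P.Af.lin x z q) = P.Af.lin (L.hol ξ x) (L.hol ξ z) (P.hh x ξ q) := by
  have hξz : ξ ≠ L.ep z := by rw [h']; exact hξ
  have e1 : L.em (L.hol ξ x) = ξ := L.hol_em _ _ hξ
  have e2 : L.em (L.hol ξ z) = ξ := L.hol_em _ _ hξz
  have e3 : L.ep (L.hol ξ z) = L.ep (L.hol ξ x) := by
    rw [L.hol_ep _ _ hξz, L.hol_ep _ _ hξ, h']
  rw [Pic.hh, pt_lin h h']
  exact ch_lin (e1.trans e2.symm) e3 (by rw [e1]; exact hq)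

/-- the derivative of the holonomy at another frame of the same geodesic -/
theorem der_lin {ε₀ : ℝ} (h3 : P.T3 ε₀) {x z : X} {ξ : B} (hξ : ξ ≠ L.ep x)
    (h : L.em x = L.em z) (h' : L.ep z = L.ep x) {A : E2 ≃L[ℝ] E2}
    (hA : (A : E2 →L[ℝ] E2) = fderiv ℝ (P.hh x ξ) 0) :
    ((((P.Af.lin x z).symm.trans A).trans (P.Af.lin (L.hol ξ x) (L.hol ξ z)) : E2 ≃L[ℝ] E2) :
      E2 →L[ℝ] E2) = fderiv ℝ (P.hh z ξ) 0 := by
  have hO : IsOpen {q : E2 | P.Af.pt x q ≠ ξ} := by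
    have h6 : Continuous fun q : E2 => P.Af.pt x q :=
      P.Af.pt_cont.comp (Continuous.prodMk continuous_const continuous_id)
    exact isOpen_compl_singleton.preimage h6
  have h0 : (0 : E2) ∈ {q : E2 | P.Af.pt x q ≠ ξ} := by
    show P.Af.pt x 0 ≠ ξ
    rw [P.Af.pt_zero]
    exact hξ.symm
  have hd : HasFDerivAt (P.hh x ξ) (A : E2 →L[ℝ] E2) 0 := by
    rw [hA]
    exact (((h3.1 x ξ hξ).1.contDiffAt (hO.mem_nhds h0)).differentiableAt
      one_ne_zero).hasFDerivAt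
  set Q := P.Af.lin x z with hQ
  set Q' := P.Af.lin (L.hol ξ x) (L.hol ξ z) with hQ'
  have hQ0 : Q.symm 0 = 0 := map_zero _
  have h1 : HasFDerivAt (fun q => Q' (P.hh x ξ (Q.symm q)))
      ((Q' : E2 →L[ℝ] E2) ∘L (A : E2 →L[ℝ] E2) ∘L (Q.symm : E2 →L[ℝ] E2)) 0 := by
    have h2 : HasFDerivAt (fun q : E2 => Q.symm q) (Q.symm : E2 →L[ℝ] E2) 0 :=
      (Q.symm : E2 →L[ℝ] E2).hasFDerivAt
    have h4 : HasFDerivAt (P.hh x ξ) (A : E2 →L[ℝ] E2) (Q.symm 0) := by rw [hQ0]; exact hd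
    exact (Q' : E2 →L[ℝ] E2).hasFDerivAt.comp 0 (h4.comp 0 h2)
  have h2 : P.hh z ξ =ᶠ[𝓝 0] fun q => Q' (P.hh x ξ (Q.symm q)) := by
    have h5 : ∀ᶠ q : E2 in 𝓝 0, Q.symm q ∈ {q : E2 | P.Af.pt x q ≠ ξ} := by
      refine Q.symm.continuous.continuousAt.eventually (hO.mem_nhds ?_)
      rw [hQ0]
      exact h0
    filter_upwards [h5] with q hq
    have h6 := hh_lin (P := P) hξ h h' hq
    rw [← hQ, ContinuousLinearEquiv.apply_symm_apply] at h6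
    exact h6
  rw [(h1.congr_of_eventuallyEq h2).fderiv]
  ext1 v
  rfl

/-! ### the future of a frame -/

theorem ep_rot (a : O2) (x : X) : L.ep (L.rot a x) = L.ep x := by
  rw [L.ep_flip, L.flip_rot, L.em_rot, ← L.ep_flip]

theorem lin_norm {x : X} {t : ℝ} (a : O2) (q : E2) :
    ‖P.Af.lin x (L.rot a (L.φ t x)) q‖ = ‖P.Af.P t x q‖ := by
  have h1 := pt_lin (P := P) (x := x) (z := L.rot a (L.φ t x)) (by rw [L.em_rot, L.em_φ])
    (by rw [ep_rot, H761.ep_φ]) q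
  rw [P.Af.pt_rot, ← P.Af.flow t x q] at h1
  have h2 := P.Af.pt_inj _ h1
  rw [← h2, LinearIsometryEquiv.norm_map]

theorem lin_hi (hR : P.RateP) {x : X} {t : ℝ} (ht : 0 ≤ t) (a : O2) :
    ‖(P.Af.lin x (L.rot a (L.φ t x)) : E2 →L[ℝ] E2)‖ ≤ Real.exp (P.Ra.b * t) := by
  refine ContinuousLinearMap.opNorm_le_bound _ (Real.exp_pos _).le fun q => ?_
  show ‖P.Af.lin x (L.rot a (L.φ t x)) q‖ ≤ _
  rw [lin_norm]
  exact (hR t ht x q).2

theorem lin_lo (hR : P.RateP) {x : X} {t : ℝ} (ht : 0 ≤ t) (a : O2) :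
    ‖((P.Af.lin x (L.rot a (L.φ t x))).symm : E2 →L[ℝ] E2)‖ ≤ Real.exp (-(P.Ra.a * t)) := by
  refine ContinuousLinearMap.opNorm_le_bound _ (Real.exp_pos _).le fun q => ?_
  show ‖(P.Af.lin x (L.rot a (L.φ t x))).symm q‖ ≤ _
  have h1 := (hR t ht x ((P.Af.lin x (L.rot a (L.φ t x))).symm q)).1
  rw [← lin_norm (P := P) a, ContinuousLinearEquiv.apply_symm_apply] at h1
  rw [Real.exp_neg, ← div_eq_inv_mul, le_div_iff₀ (Real.exp_pos _), mul_comm]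
  exact h1

/-- the leaf `ξ` is close in the future, at the rate `a` -/
theorem near_future (hA : H761.AngF P) {x : X} {ξ : B} (hξ : ξ ≠ L.ep x) :
    ∃ K T : ℝ, 0 ≤ K ∧ 0 ≤ T ∧ ∀ t ≥ T, ∀ a : O2, 0 < P.Bu.nu (L.rot a (L.φ t x)) ξ 0 ∧
      ‖P.gr (L.rot a (L.φ t x)) ξ 0‖ ≤ K * Real.exp (-(P.Ra.a * t)) := by
  obtain ⟨C, hC⟩ := hA
  obtain ⟨n, hn⟩ := H761.exists_nr (P := P) (ε := 1) one_pos hξ
  refine ⟨|C| * Real.exp (P.Ra.a * n), n, by positivity, Nat.cast_nonneg n, fun t ht a => ?_⟩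
  obtain ⟨h1, h2⟩ := hC (L.φ n x) ξ hn.1 (t - n) (sub_nonneg.2 ht)
  rw [← L.φ_add, sub_add_cancel] at h1 h2
  refine ⟨?_, ?_⟩
  · rw [P.Bu.nu_rot a _ ξ 0 (mem_ball_self (by norm_num)), map_zero]
    exact h1
  · have h4 : (L.φ t x, a (0 : E2)) ∈ P.Af.dT := by
      rw [map_zero]
      exact P.Af.zero_dT _
    rw [P.gr_rot a h4, LinearIsometryEquiv.norm_map, map_zero]
    refine h2.trans ?_
    have h5 : Real.exp (-(P.Ra.a * (t - n))) = Real.exp (P.Ra.a * n) * Real.exp (-(P.Ra.a * t)) := by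
      rw [← Real.exp_add]
      congr 1
      ring
    rw [h5]
    have h6 : 0 ≤ Real.exp (P.Ra.a * n) * Real.exp (-(P.Ra.a * t)) := by positivity
    calc C * (Real.exp (P.Ra.a * n) * Real.exp (-(P.Ra.a * t))) * ‖P.gr (L.φ n x) ξ 0‖
        ≤ |C| * (Real.exp (P.Ra.a * n) * Real.exp (-(P.Ra.a * t))) * ‖P.gr (L.φ n x) ξ 0‖ := by
          gcongr
          exact le_abs_self C
      _ ≤ |C| * (Real.exp (P.Ra.a * n) * Real.exp (-(P.Ra.a * t))) * 1 := by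
          gcongr
          exact hn.2
      _ = _ := by ring

/-- the derivative of the holonomy is bounded, for close leaves -/
theorem der_bound {ε₀ : ℝ} (hε₀ : 0 < ε₀) (h2a : P.T2a ε₀) (h3 : P.T3 ε₀) : ∃ ε > 0, ∀ x ξ,
    P.Nr ε x ξ → ‖fderiv ℝ (P.hh x ξ) 0‖ ≤ 2 := by
  obtain ⟨ρ, hρ, h1⟩ := h2a.2.1 (1 / 2) (by norm_num)
  obtain ⟨C, hC⟩ := h3.2 (1 / 2) (by norm_num)
  set c : ℝ := 1 / (2 * (|C| + 1)) with hc
  have hc0 : 0 < c := by positivity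
  refine ⟨min (min ε₀ ρ) (c ^ 2), by positivity, fun x ξ hn => ?_⟩
  have hn1 : P.Nr ε₀ x ξ := ⟨hn.1, hn.2.trans ((min_le_left _ _).trans (min_le_left _ _))⟩
  have hn2 : P.Nr ρ x ξ := ⟨hn.1, hn.2.trans ((min_le_left _ _).trans (min_le_right _ _))⟩
  have hn3 : ‖P.gr x ξ 0‖ ≤ c ^ 2 := hn.2.trans (min_le_right _ _)
  have h0 : (0 : E2) ∈ ball (0 : E2) 1 := mem_ball_self one_pos
  have h2 := h1 x ξ hn2 0 h0
  have h4 := hC x ξ hn1 0 h0
  have h5 : ‖P.gr x ξ 0‖ ^ (1 / 2 : ℝ) ≤ c := by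
    rw [← Real.sqrt_eq_rpow]
    calc Real.sqrt ‖P.gr x ξ 0‖ ≤ Real.sqrt (c ^ 2) := Real.sqrt_le_sqrt hn3
      _ = c := Real.sqrt_sq hc0.le
  have h6 : C * ‖P.gr x ξ 0‖ ^ (1 / 2 : ℝ) ≤ 1 / 2 := by
    have h7 : 0 ≤ ‖P.gr x ξ 0‖ ^ (1 / 2 : ℝ) := Real.rpow_nonneg (norm_nonneg _) _
    calc C * ‖P.gr x ξ 0‖ ^ (1 / 2 : ℝ) ≤ (|C| + 1) * c := by
          refine mul_le_mul ?_ h5 h7 (by positivity)
          linarith [le_abs_self C]
      _ = 1 / 2 := by rw [hc]; field_simp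
  have h7 : fderiv ℝ (P.hh x ξ) 0 = (fderiv ℝ (P.hh x ξ) 0 - fderiv ℝ (P.Aq x ξ) 0) +
      (fderiv ℝ (P.Aq x ξ) 0 - ContinuousLinearMap.id ℝ E2) + ContinuousLinearMap.id ℝ E2 := by
    abel
  rw [h7]
  calc _ ≤ ‖fderiv ℝ (P.hh x ξ) 0 - fderiv ℝ (P.Aq x ξ) 0‖ +
        ‖fderiv ℝ (P.Aq x ξ) 0 - ContinuousLinearMap.id ℝ E2‖ + ‖ContinuousLinearMap.id ℝ E2‖ :=
        (norm_add_le _ _).trans (add_le_add (norm_add_le _ _) le_rfl)
    _ ≤ 1 / 2 + 1 / 2 + 1 :=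
        add_le_add (add_le_add (h4.trans h6) h2) ContinuousLinearMap.norm_id_le
    _ = 2 := by norm_num

/-! ### the action on the forms -/

theorem fo_norm (s : E2 →L[ℝ] E2) : ‖fo s‖ = ‖s‖ := Vale.Agent.P207.N4.H751.Q4.fo_norm s

theorem pb_opNorm (A : E2 →L[ℝ] E2) : ‖(prF E2).rep A‖ ≤ ‖A‖ ^ 2 :=
  ContinuousLinearMap.opNorm_le_bound _ (by positivity) fun s => pb_norm A s

section main

variable {k0 : ℕ} {D : ZDk k0 E2 (Fm E2) X}

/-- the S-bundle of `D` is invariant under the changes of frame -/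
theorem dsm_lin (hSB : P.SB) (hSm : ∀ x s, s ∈ P.Sm x ↔ fo s ∈ D.Sm x) {x z : X}
    (h : L.em x = L.em z) (s : Fm E2) : s ∈ D.Sm x ↔ act (P.Af.lin x z) s ∈ D.Sm z := by
  obtain ⟨s0, rfl⟩ := fo_surj s
  have h1 : act (P.Af.lin x z) (fo s0) = fo (Pic.push (P.Af.lin x z) s0) :=
    (fo_push (P.Af.lin x z) s0).symm
  rw [h1, ← hSm, ← hSm]
  exact hSB.2.1 x z h s0

/-- **the invariance of the S-bundle at a frame with dense forward orbit** -/
theorem inv0_of {ε₀ : ℝ} (hε₀ : 0 < ε₀) (hR : P.RateP) (hA : H761.AngF P) (h2a : P.T2a ε₀)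
    (h3 : P.T3 ε₀) (hSB : P.SB) (hC : CloseP P) (hSm : ∀ x s, s ∈ P.Sm x ↔ fo s ∈ D.Sm x)
    (hN : ∀ (z : ℕ → X) (g : ℕ → Γ) (w : X), Tendsto (fun n => g n • z n) atTop (𝓝 w) →
      TendstoUniformlyOn (fun n => D.N (z n)) (D.N w) atTop (ball 0 1))
    (hrep : HasRep0 D (prF E2)) (hcl : SmClose D) {x₀ : X} (hd : DenseFrom D x₀) {x : X}
    (hx : FwdD L x) {ξ : B} (hξ : ξ ≠ L.ep x) :
    ∀ A : E2 ≃L[ℝ] E2, (A : E2 →L[ℝ] E2) = fderiv ℝ (P.hh x ξ) 0 →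
      ∀ s ∈ P.Sm x, Pic.push A s ∈ P.Sm (L.hol ξ x) := by
  intro A hA0 s hs
  -- the type lemma
  obtain ⟨ε1, hε1, η, hη, C1, hC1, hty⟩ := ty_quad_sm (ρ := prF E2) hrep hcl hd
    (fun k θ₀ => prF_pol.eqn θ₀)
  -- the constants
  have ha := P.Ra.a_pos
  have hab := P.Ra.a_le_b
  have hp := P.Ra.pinch
  set e : ℝ := 1 - P.Ra.b / (2 * P.Ra.a) with he
  have hba : P.Ra.b / (2 * P.Ra.a) < 1 := by rw [div_lt_one (by positivity)]; exact hp
  have he0 : 0 < e := by rw [he]; linarith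
  set κ : ℝ := P.Ra.b / (2 * P.Ra.a) with hκ
  have hκ0 : 0 < κ := by
    have : 0 < P.Ra.b := ha.trans_le hab
    positivity
  have hκa : κ * P.Ra.a = P.Ra.b / 2 := by rw [hκ]; field_simp
  have h1e : 1 - e = κ := by rw [he]; ring
  obtain ⟨ε2, hε2, C2, hC2⟩ := hC e he0
  rw [h1e] at hC2
  obtain ⟨ε3, hε3, hder⟩ := der_bound hε₀ h2a h3
  obtain ⟨K, T, hK0, hT0, hfut⟩ := near_future hA hξ
  -- the return times
  choose t ht a g hg using fun n : ℕ => hx (ball x₀ (1 / ((n : ℝ) + 1))) isOpen_ball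
    ⟨x₀, mem_ball_self (by positivity)⟩ (max T n)
  have htT : ∀ n, T ≤ t n := fun n => (le_max_left _ _).trans (ht n)
  have ht0 : ∀ n, 0 ≤ t n := fun n => hT0.trans (htT n)
  have htn : Tendsto t atTop atTop :=
    tendsto_atTop_mono (fun n => (le_max_right _ _).trans (ht n)) tendsto_natCast_atTop_atTop
  set z : ℕ → X := fun n => L.rot (a n) (L.φ (t n) x) with hz
  have hzlim : Tendsto (fun n => g n • z n) atTop (𝓝 x₀) := by
    rw [tendsto_iff_dist_tendsto_zero]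
    exact squeeze_zero (fun n => dist_nonneg) (fun n => (mem_ball.1 (hg n)).le)
      tendsto_one_div_add_atTop_nhds_zero_nat
  have hzem : ∀ n, L.em x = L.em (z n) := fun n => by
    show L.em x = L.em (L.rot (a n) (L.φ (t n) x))
    rw [L.em_rot, L.em_φ]
  have hzep : ∀ n, L.ep (z n) = L.ep x := fun n => by
    show L.ep (L.rot (a n) (L.φ (t n) x)) = _
    rw [ep_rot, H761.ep_φ]
  have hξz : ∀ n, ξ ≠ L.ep (z n) := fun n => by rw [hzep]; exact hξ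
  set Q : ℕ → E2 ≃L[ℝ] E2 := fun n => P.Af.lin x (z n) with hQ
  set Q' : ℕ → E2 ≃L[ℝ] E2 := fun n => P.Af.lin (L.hol ξ x) (L.hol ξ (z n)) with hQ'
  set H : ℕ → E2 ≃L[ℝ] E2 := fun n => ((Q n).symm.trans A).trans (Q' n) with hH
  have hHd : ∀ n, (H n : E2 →L[ℝ] E2) = fderiv ℝ (P.hh (z n) ξ) 0 := fun n =>
    der_lin h3 hξ (hzem n) (hzep n) hA0
  have hyem : ∀ n, L.em (L.hol ξ x) = L.em (L.hol ξ (z n)) := fun n => by
    rw [L.hol_em _ _ hξ, L.hol_em _ _ (hξz n)]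
  -- the distances
  set r : ℕ → ℝ := fun n => K * Real.exp (-(P.Ra.a * t n)) with hr
  have hr0 : ∀ n, 0 ≤ r n := fun n => by positivity
  have hgr : ∀ n, 0 < P.Bu.nu (z n) ξ 0 ∧ ‖P.gr (z n) ξ 0‖ ≤ r n := fun n =>
    hfut (t n) (htT n) (a n)
  have hexp : ∀ c : ℝ, 0 < c → Tendsto (fun n => Real.exp (-(c * t n))) atTop (𝓝 0) := by
    intro c hc
    refine Real.tendsto_exp_atBot.comp ?_
    exact tendsto_neg_atTop_atBot.comp (htn.const_mul_atTop hc)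
  have hrlim : Tendsto r atTop (𝓝 0) := by
    have h1 := (hexp P.Ra.a ha).const_mul K
    rw [mul_zero] at h1
    exact h1
  set δ : ℕ → ℝ := fun n => 4 * |C2| * r n ^ κ with hδ
  have hδ0 : ∀ n, 0 ≤ δ n := fun n => by
    have := Real.rpow_nonneg (hr0 n) κ
    positivity
  have hrκ : ∀ n, r n ^ κ = K ^ κ * Real.exp (-(P.Ra.b / 2 * t n)) := by
    intro n
    show (K * Real.exp (-(P.Ra.a * t n))) ^ κ = _
    rw [Real.mul_rpow hK0 (Real.exp_pos _).le, ← Real.exp_mul]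
    congr 2
    rw [← hκa]
    ring
  have hb0 : 0 < P.Ra.b := ha.trans_le hab
  have hδlim : Tendsto δ atTop (𝓝 0) := by
    have h1 := (hexp (P.Ra.b / 2) (by positivity)).const_mul (4 * |C2| * K ^ κ)
    rw [mul_zero] at h1
    refine h1.congr fun n => ?_
    show _ = 4 * |C2| * r n ^ κ
    rw [hrκ]
    ring
  have hQ1 : ∀ n, ‖(Q n : E2 →L[ℝ] E2)‖ * ‖((Q n).symm : E2 →L[ℝ] E2)‖ ≤
      Real.exp ((P.Ra.b - P.Ra.a) * t n) := by
    intro n
    calc _ ≤ Real.exp (P.Ra.b * t n) * Real.exp (-(P.Ra.a * t n)) :=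
          mul_le_mul (lin_hi hR (ht0 n) (a n)) (lin_lo hR (ht0 n) (a n)) (norm_nonneg _)
            (Real.exp_pos _).le
      _ = _ := by
          rw [← Real.exp_add]
          congr 1
          ring
  have hmain : Tendsto (fun n => ‖(Q n : E2 →L[ℝ] E2)‖ * ‖((Q n).symm : E2 →L[ℝ] E2)‖ * δ n)
      atTop (𝓝 0) := by
    have h1 := (hexp (P.Ra.a - P.Ra.b / 2) (by linarith)).const_mul (4 * |C2| * K ^ κ)
    rw [mul_zero] at h1
    refine squeeze_zero (fun n => mul_nonneg (by positivity) (hδ0 n)) (fun n => ?_) h1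
    calc _ ≤ Real.exp ((P.Ra.b - P.Ra.a) * t n) * δ n :=
          mul_le_mul_of_nonneg_right (hQ1 n) (hδ0 n)
      _ = Real.exp ((P.Ra.b - P.Ra.a) * t n) *
          (4 * |C2| * (K ^ κ * Real.exp (-(P.Ra.b / 2 * t n)))) := by
          show _ * (4 * |C2| * r n ^ κ) = _
          rw [hrκ]
      _ = 4 * |C2| * K ^ κ * (Real.exp ((P.Ra.b - P.Ra.a) * t n) *
          Real.exp (-(P.Ra.b / 2 * t n))) := by ring
      _ = 4 * |C2| * K ^ κ * Real.exp (-((P.Ra.a - P.Ra.b / 2) * t n)) := by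
          rw [← Real.exp_add]
          congr 2
          ring
      _ ≤ _ := le_rfl
  have hmain2 : Tendsto (fun n => ‖(prF E2).rep (Q n : E2 →L[ℝ] E2)‖ *
      ‖(prF E2).rep ((Q n).symm : E2 →L[ℝ] E2)‖ * δ n ^ 2) atTop (𝓝 0) := by
    have h1 := hmain.mul hmain
    rw [mul_zero] at h1
    refine squeeze_zero (fun n => by positivity) (fun n => ?_) h1
    calc _ ≤ ‖(Q n : E2 →L[ℝ] E2)‖ ^ 2 * ‖((Q n).symm : E2 →L[ℝ] E2)‖ ^ 2 * δ n ^ 2 := by
          refine mul_le_mul_of_nonneg_right ?_ (by positivity)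
          exact mul_le_mul (pb_opNorm _) (pb_opNorm _) (norm_nonneg _) (by positivity)
      _ = _ := by ring
  -- the images at the time `t n`
  have key : ∀ᶠ n in atTop, ∃ Y : E2 →L[ℝ] E2, ‖Y‖ ≤ C1 * δ n ∧ ∀ p ∈ D.Sm (z n),
      ∃ q ∈ D.Sm (L.hol ξ (z n)), ‖(prF E2).rep (H n : E2 →L[ℝ] E2) q -
        (p + (prF E2).d Y p)‖ ≤ C1 * δ n ^ 2 * ‖p‖ := by
    have e1 : ∀ᶠ n in atTop, ∀ y ∈ ball (0 : E2) 1, ‖D.N (z n) y - D.N x₀ y‖ ≤ ε1 := by
      have h1 := hN z g x₀ hzlim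
      rw [Metric.tendstoUniformlyOn_iff] at h1
      filter_upwards [h1 ε1 hε1] with n hn y hy
      have := hn y hy
      rw [dist_comm, dist_eq_norm] at this
      exact this.le
    have e2 : ∀ᶠ n in atTop, r n ≤ ε2 := (hrlim.eventually (gt_mem_nhds hε2)).mono fun n h => h.le
    have e3 : ∀ᶠ n in atTop, r n ≤ ε3 := (hrlim.eventually (gt_mem_nhds hε3)).mono fun n h => h.le
    have e4 : ∀ᶠ n in atTop, δ n ≤ η := (hδlim.eventually (gt_mem_nhds hη)).mono fun n h => h.le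
    filter_upwards [e1, e2, e3, e4] with n h1 h2 h4 h5
    refine hty (z n) h1 (L.hol ξ (z n)) (H n) (δ n) (hδ0 n) h5 fun p hp => ?_
    obtain ⟨s0, rfl⟩ := fo_surj p
    obtain ⟨s', hs', hle⟩ := hC2 (z n) ξ ⟨(hgr n).1, (hgr n).2.trans h2⟩ (H n) (hHd n) s0
      ((hSm _ _).2 hp)
    refine ⟨fo s', (hSm _ _).1 hs', ?_⟩
    have h6 : (prF E2).rep (H n : E2 →L[ℝ] E2) (fo s') - fo s0 =
        (prF E2).rep (H n : E2 →L[ℝ] E2) (fo (s' - Pic.push (H n) s0)) := by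
      rw [map_sub, map_sub]
      congr 1
      have h7 : fo (Pic.push (H n) s0) = (prF E2).rep ((H n).symm : E2 →L[ℝ] E2) (fo s0) :=
        fo_push (H n) s0
      rw [h7]
      exact (Vale.Agent.P207.H376.repQ_symm (prF E2) (H n) (fo s0)).symm
    have h8 : ‖(H n : E2 →L[ℝ] E2)‖ ≤ 2 := by
      rw [hHd]
      exact hder (z n) ξ ⟨(hgr n).1, (hgr n).2.trans h4⟩
    have h9 : ‖P.gr (z n) ξ 0‖ ^ κ ≤ r n ^ κ :=
      Real.rpow_le_rpow (norm_nonneg _) (hgr n).2 hκ0.le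
    have h10 : 0 ≤ ‖P.gr (z n) ξ 0‖ ^ κ := Real.rpow_nonneg (norm_nonneg _) _
    rw [h6]
    calc _ ≤ ‖(H n : E2 →L[ℝ] E2)‖ ^ 2 * ‖fo (s' - Pic.push (H n) s0)‖ := pb_norm _ _
      _ ≤ 2 ^ 2 * (|C2| * r n ^ κ * ‖s0‖) := by
          rw [fo_norm, norm_sub_rev]
          refine mul_le_mul (pow_le_pow_left₀ (norm_nonneg _) h8 2) (hle.trans ?_)
            (norm_nonneg _) (by norm_num)
          refine mul_le_mul_of_nonneg_right ?_ (norm_nonneg _)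
          exact mul_le_mul (le_abs_self C2) h9 h10 (abs_nonneg _)
      _ = δ n * ‖fo s0‖ := by
          rw [fo_norm]
          show _ = 4 * |C2| * r n ^ κ * ‖s0‖
          ring
  -- the conclusion
  have hfin : D.Sm x ≤ (D.Sm (L.hol ξ x)).comap
      ((act A : Fm E2 →L[ℝ] Fm E2) : Fm E2 →ₗ[ℝ] Fm E2) := by
    refine Vale.Agent.P207.H376.sinv_quad (prF E2) Q H (fun n => D.Sm (z n))
      (fun n => D.Sm (L.hol ξ (z n))) ?_ ?_ hC1 δ key hmain hmain2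
    · intro n w hw
      exact (dsm_lin hSB hSm (hzem n) w).1 hw
    · intro n q hq
      show act A ((prF E2).rep (Q n : E2 →L[ℝ] E2) ((prF E2).rep (H n : E2 →L[ℝ] E2) q)) ∈
        D.Sm (L.hol ξ x)
      have h1 : act A ((prF E2).rep (Q n : E2 →L[ℝ] E2) ((prF E2).rep (H n : E2 →L[ℝ] E2) q)) =
          pb (Q' n : E2 →L[ℝ] E2) q := by
        refine Fm.ext fun u v => ?_
        rw [act_apply, prF_rep, prF_rep, pb_apply, pb_apply, pb_apply]
        have h2 : ∀ w, (H n : E2 →L[ℝ] E2) ((Q n : E2 →L[ℝ] E2) (A.symm w)) = Q' n w := by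
          intro w
          show Q' n (A ((Q n).symm (Q n (A.symm w)))) = Q' n w
          rw [ContinuousLinearEquiv.symm_apply_apply, ContinuousLinearEquiv.apply_symm_apply]
        rw [h2, h2]
        rfl
      rw [h1, dsm_lin hSB hSm (hyem n)]
      have h2 : act (Q' n) (pb (Q' n : E2 →L[ℝ] E2) q) = q := by
        refine Fm.ext fun u v => ?_
        rw [act_apply, pb_apply]
        show q.f (Q' n ((Q' n).symm u)) (Q' n ((Q' n).symm v)) = _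
        rw [ContinuousLinearEquiv.apply_symm_apply, ContinuousLinearEquiv.apply_symm_apply]
      have h3' : act (P.Af.lin (L.hol ξ x) (L.hol ξ (z n))) (pb (Q' n : E2 →L[ℝ] E2) q) = q := h2
      rw [h3']
      exact hq
  have hfo := hfin ((hSm x s).1 hs)
  have hfo' : act A (fo s) ∈ D.Sm (L.hol ξ x) := hfo
  rw [hSm]
  have h1 : fo (Pic.push A s) = act A (fo s) := fo_push A s
  rw [h1]
  exact hfo'

end main

end Vale.Agent.P207.N4.V.H376
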