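import Vale.Agent.P207.N4.Dim
import Vale.Agent.P207.N5.H376.SInvC
import Vale.Agent.P207.N5.H242.SInvEnds
import Vale.Agent.P207.N5.H751.Fin
import Vale.Agent.P207.N4.H751.HR
import Vale.Agent.P207.H734.TyD

/-!
# P207, strict quarter pinching: `P.SInv` from the closeness of the S-bundles of close leaves
-/

set_option maxSynthPendingDepth 3
set_option linter.unusedSectionVars false

open Set Filter Topology Metric MeasureTheory
open scoped ContDiff

noncomputable section

namespace Vale.Agent.P207.N4.V.H376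

open Vale.Agent.P207.N3 Vale.Agent.P207.H751 Vale.Agent.P207.H686
open Vale.Agent.P207.N4.H242 (FwdD)

variable [Dim]

variable {Γ X B : Type} [Group Γ] [MetricSpace X] [ProperSpace X] [MulAction Γ X]
  [IsIsometricSMul Γ X] [TopologicalSpace B] [CompactSpace B] [T2Space B] [MulAction Γ B]
  [ContinuousConstSMul Γ B]

variable {L : Leaf Γ X B} [MeasurableSpace B] [BorelSpace B] {V : Type}
  [NormedAddCommGroup V] [NormedSpace ℝ V] [FiniteDimensional ℝ V]

/-- the invariance at a frame with dense forward orbit -/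
theorem inv0 (P : Pic L V) {ε₀ : ℝ} (hε₀ : 0 < ε₀) (hA : H761.AngF P) (h2a : P.T2a ε₀)
    (h3 : P.T3 ε₀) (hC : CloseP P) {x₀ : X} (h0 : Vale.Agent.P207.N4.H387.DenseF L x₀) {x : X}
    (hx : FwdD L x) {ξ : B} (hξ : ξ ≠ L.ep x) : H242.Inv0 P x ξ := by
  have hR := H832.rateP P
  refine inv0_of (D := H751.pzd P hR) hε₀ hR hA h2a h3 (H751.SB_main P) hC
    (H751.mem_Sm_iff P hR) (fun z g w h => ?_)
    (Vale.Agent.P207.N4.H751.hasRep (H751.rin P hR 1 one_pos) P.S.T).to0
    (Vale.Agent.P207.H734.smClose _)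
    (Vale.Agent.P207.N4.H751.denseFrom (H751.rin P hR 1 one_pos) P.S.T h0) hx hξ
  exact (H751.toIn P.Af).Nf_unif_smul P.S.T (g := g) h

/-- **(SINV), `b < 2 a`**, from the closeness of the S-bundles -/
theorem sinv_of (P : Pic L V) {ε₀ : ℝ} (hε₀ : 0 < ε₀) (hA : H761.AngF P) (h2a : P.T2a ε₀)
    (h3 : P.T3 ε₀) (hC : CloseP P) : P.SInv := by
  obtain ⟨x₀, h0⟩ := Vale.Agent.P207.N4.H387.exists_dense_frame L
  have h1 : FwdD L x₀ := h0.fwd
  obtain ⟨G, hG, h2⟩ := h1.ends
  exact H242.sinv_of_ends P h3 (H751.SB_main P) G hG fun x ξ hx hξ =>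
    inv0 P hε₀ hA h2a h3 hC h0 (h2 x hx) hξ

end Vale.Agent.P207.N4.V.H376
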