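import Vale.Agent.P207.N4.Dim
import Vale.Agent.P207.N5.H376.SInvD
import Vale.Agent.P207.N5.H732.Close
import Vale.Agent.P207.N5.H988.T3Main

/-!
# P207, strict quarter pinching: **(SINV) holds over `PicG`, for `b < 2 a`**

The S-bundle is invariant under the stable holonomy.
-/

set_option maxSynthPendingDepth 3
set_option linter.unusedSectionVars false

open Set Filter Topology Metric MeasureTheory
open scoped ContDiff

noncomputable section

namespace Vale.Agent.P207.N4.V.H376

open Vale.Agent.P207.N3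

variable [Dim]

variable {Γ X B : Type} [Group Γ] [MetricSpace X] [ProperSpace X] [MulAction Γ X]
  [IsIsometricSMul Γ X] [TopologicalSpace B] [CompactSpace B] [T2Space B] [MulAction Γ B]
  [ContinuousConstSMul Γ B]

variable {L : Leaf Γ X B} [MeasurableSpace B] [BorelSpace B] {V : Type}
  [NormedAddCommGroup V] [NormedSpace ℝ V] [FiniteDimensional ℝ V]

/-- **(SINV)** -/
theorem sinvG (P : PicG L V) : P.toPic.SInv := by
  have hA := H469.angR P
  obtain ⟨e1, he1, h2a⟩ := H790.t2a P.toPic hA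
  obtain ⟨e2, he2, he2', C2, hC2⟩ := H709.t2h P.toPic one_pos (H469.t2dG P 1)
  obtain ⟨e3, he3, h3⟩ := H988.t3 P
  obtain ⟨e, he⟩ : ∃ e : ℝ, e = min e1 (min e2 e3) := ⟨_, rfl⟩
  have p0 : 0 < e := by rw [he]; exact lt_min he1 (lt_min he2 he3)
  have p1 : e ≤ e1 := by rw [he]; exact min_le_left _ _
  have p2 : e ≤ e2 := by rw [he]; exact (min_le_right _ _).trans (min_le_left _ _)
  have p3 : e ≤ e3 := by rw [he]; exact (min_le_right _ _).trans (min_le_right _ _)
  have h2h : P.toPic.T2h e := ⟨C2, fun x ξ h => hC2 x ξ ⟨h.1, h.2.trans p2⟩⟩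
  exact sinv_of P.toPic p0 (H988.angF_of hA) (h2a e p0 p1) (h3 e p3)
    (H732.closeP P.toPic p0 (H469.t2dG P e) h2h (h3 e p3))

end Vale.Agent.P207.N4.V.H376
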